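import Mathlib

/-! Dimension theory for a normal faithful trace on a commutant `M = C'` in `B(H)`. -/

set_option autoImplicit false

open scoped InnerProductSpace ComplexOrder
open Filter Topology Set

noncomputable section

namespace Crest.Agent.H4.VD

variable {H : Type*} [NormedAddCommGroup H] [InnerProductSpace ℂ H] [CompleteSpace H]

/-- orthogonal projection onto the closure of a subspace -/
def pr (W : Submodule ℂ H) : H →L[ℂ] H := W.topologicalClosure.starProjection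

/-- range projection `[x]` -/
def rp (x : H →L[ℂ] H) : H →L[ℂ] H := pr (LinearMap.range (x : H →ₗ[ℂ] H))

/-- kernel projection -/
def kp (x : H →L[ℂ] H) : H →L[ℂ] H := pr (LinearMap.ker (x : H →ₗ[ℂ] H))

/-- infimum `p ∧ q` -/
def pinf (p q : H →L[ℂ] H) : H →L[ℂ] H :=
  pr (LinearMap.range (p : H →ₗ[ℂ] H) ⊓ LinearMap.range (q : H →ₗ[ℂ] H))

lemma inner_star (x : H →L[ℂ] H) (u v : H) : ⟪star x u, v⟫_ℂ = ⟪u, x v⟫_ℂ :=
  ContinuousLinearMap.adjoint_inner_left x v u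

lemma inner_star' (x : H →L[ℂ] H) (u v : H) : ⟪u, star x v⟫_ℂ = ⟪x u, v⟫_ℂ :=
  ContinuousLinearMap.adjoint_inner_right x u v

lemma pr_proj (W : Submodule ℂ H) : IsStarProjection (pr W) :=
  isStarProjection_starProjection

lemma pr_mem (W : Submodule ℂ H) (v : H) : pr W v ∈ W.topologicalClosure :=
  Submodule.starProjection_apply_mem _ v

lemma pr_eq_self {W : Submodule ℂ H} {v : H} : pr W v = v ↔ v ∈ W.topologicalClosure :=
  Submodule.starProjection_eq_self_iff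

lemma pr_of_mem {W : Submodule ℂ H} {v : H} (hv : v ∈ W) : pr W v = v :=
  pr_eq_self.2 (W.le_topologicalClosure hv)

lemma pr_eq_zero {W : Submodule ℂ H} {v : H} : pr W v = 0 ↔ v ∈ Wᗮ := by
  rw [pr, Submodule.starProjection_apply_eq_zero_iff, Submodule.orthogonal_closure]

lemma sub_pr_mem (W : Submodule ℂ H) (v : H) : v - pr W v ∈ Wᗮ := by
  rw [← Submodule.orthogonal_closure]
  exact Submodule.sub_starProjection_mem_orthogonal v

lemma closure_eq {W : Submodule ℂ H} (hW : IsClosed (W : Set H)) : W.topologicalClosure = W :=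
  hW.submodule_topologicalClosure_eq

lemma pr_mem' {W : Submodule ℂ H} (hW : IsClosed (W : Set H)) (v : H) : pr W v ∈ W := by
  have := pr_mem W v; rwa [closure_eq hW] at this

/-- an operator fixing `W` pointwise fixes the range of `pr W` -/
lemma mul_pr {W : Submodule ℂ H} {q : H →L[ℂ] H} (h : ∀ v ∈ W, q v = v) : q * pr W = pr W := by
  ext v
  have hc : IsClosed {v : H | q v = v} := isClosed_eq q.continuous continuous_id
  exact closure_minimal (fun v hv => h v hv) hc (pr_mem W v)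

lemma mul_pr_zero {W : Submodule ℂ H} {q : H →L[ℂ] H} (h : ∀ v ∈ W, q v = 0) : q * pr W = 0 := by
  ext v
  have hc : IsClosed {v : H | q v = 0} := isClosed_eq q.continuous continuous_const
  exact closure_minimal (fun v hv => h v hv) hc (pr_mem W v)

lemma pr_mono {W W' : Submodule ℂ H} (h : W ≤ W'.topologicalClosure) : pr W' * pr W = pr W :=
  mul_pr fun _ hv => pr_eq_self.2 (h hv)

/-- characterisation of `pr W` -/
lemma pr_apply_eq {W : Submodule ℂ H} {v w : H} (h1 : w ∈ W.topologicalClosure)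
    (h2 : v - w ∈ Wᗮ) : pr W v = w := by
  have : pr W v = pr W w + pr W (v - w) := by rw [← map_add]; simp
  rw [this, pr_eq_self.2 h1, pr_eq_zero.2 h2, add_zero]

lemma pr_orth (W : Submodule ℂ H) : pr Wᗮ = 1 - pr W := by
  ext v
  refine pr_apply_eq (Submodule.le_topologicalClosure _ (sub_pr_mem W v)) ?_
  have : v - (1 - pr W) v = pr W v := by simp
  rw [this, Submodule.orthogonal_orthogonal_eq_closure]
  exact pr_mem W v

lemma comm_pr {W : Submodule ℂ H} {c : H →L[ℂ] H} (h1 : ∀ v ∈ W, c v ∈ W.topologicalClosure)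
    (h2 : ∀ v ∈ W, star c v ∈ W.topologicalClosure) : c * pr W = pr W * c := by
  ext v
  symm
  refine pr_apply_eq ?_ ?_
  · have hc : IsClosed {v : H | c v ∈ W.topologicalClosure} :=
      W.isClosed_topologicalClosure.preimage c.continuous
    exact closure_minimal (fun v hv => h1 v hv) hc (pr_mem W v)
  · rw [Submodule.mem_orthogonal]
    intro u hu
    have e : c v - (c * pr W) v = c (v - pr W v) := by simp
    show ⟪u, c v - (c * pr W) v⟫_ℂ = 0
    rw [e, ← inner_star]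
    have := sub_pr_mem W v
    rw [← Submodule.orthogonal_closure, Submodule.mem_orthogonal] at this
    exact this _ (h2 u hu)

lemma proj_apply {p : H →L[ℂ] H} (hp : IsStarProjection p) (v : H) : p (p v) = p v := by
  rw [← ContinuousLinearMap.mul_apply, hp.isIdempotentElem.eq]

lemma mem_range_proj {p : H →L[ℂ] H} (hp : IsStarProjection p) {v : H} :
    v ∈ LinearMap.range (p : H →ₗ[ℂ] H) ↔ p v = v :=
  ⟨by rintro ⟨w, rfl⟩; exact proj_apply hp w, fun h => ⟨v, h⟩⟩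

lemma isClosed_range_proj {p : H →L[ℂ] H} (hp : IsStarProjection p) :
    IsClosed (LinearMap.range (p : H →ₗ[ℂ] H) : Set H) := by
  have : (LinearMap.range (p : H →ₗ[ℂ] H) : Set H) = {v | p v = v} := by
    ext v; exact mem_range_proj hp
  rw [this]; exact isClosed_eq p.continuous continuous_id

lemma rp_proj (x : H →L[ℂ] H) : IsStarProjection (rp x) := pr_proj _
lemma kp_proj (x : H →L[ℂ] H) : IsStarProjection (kp x) := pr_proj _
lemma pinf_proj (p q : H →L[ℂ] H) : IsStarProjection (pinf p q) := pr_proj _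

lemma rp_mul (x : H →L[ℂ] H) : rp x * x = x := by
  ext v; exact pr_of_mem ⟨v, rfl⟩

/-- minimality of the range projection -/
lemma mul_rp {q x : H →L[ℂ] H} (h : q * x = x) : q * rp x = rp x :=
  mul_pr (by rintro _ ⟨w, rfl⟩; exact congrArg (fun y : H →L[ℂ] H => y w) h)

lemma mul_rp_zero {q x : H →L[ℂ] H} (h : q * x = 0) : q * rp x = 0 :=
  mul_pr_zero (by rintro _ ⟨w, rfl⟩; exact congrArg (fun y : H →L[ℂ] H => y w) h)

lemma mul_kp (x : H →L[ℂ] H) : x * kp x = 0 := mul_pr_zero fun _ hv => hv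

lemma kp_apply_eq_self {x : H →L[ℂ] H} {v : H} : kp x v = v ↔ x v = 0 := by
  rw [kp, pr_eq_self, closure_eq x.isClosed_ker]; rfl

/-- maximality of the kernel projection -/
lemma kp_mul {x q : H →L[ℂ] H} (h : x * q = 0) : kp x * q = q := by
  ext v; exact kp_apply_eq_self.2 (congrArg (fun y : H →L[ℂ] H => y v) h)

lemma rp_of_proj {p : H →L[ℂ] H} (hp : IsStarProjection p) : rp p = p := by
  ext v
  refine pr_apply_eq (Submodule.le_topologicalClosure _ ⟨v, rfl⟩) ?_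
  rw [Submodule.mem_orthogonal]
  rintro _ ⟨w, rfl⟩
  show ⟪p w, v - p v⟫_ℂ = 0
  rw [← inner_star', hp.isSelfAdjoint.star_eq, map_sub, proj_apply hp, sub_self, inner_zero_right]

lemma range_orth (x : H →L[ℂ] H) :
    (LinearMap.range (x : H →ₗ[ℂ] H))ᗮ = LinearMap.ker ((star x : H →L[ℂ] H) : H →ₗ[ℂ] H) := by
  ext v
  rw [Submodule.mem_orthogonal, LinearMap.mem_ker]
  constructor
  · intro h
    have := h _ ⟨star x v, rfl⟩
    have h2 : ⟪star x v, star x v⟫_ℂ = 0 := by rw [inner_star']; exact this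
    exact inner_self_eq_zero.1 h2
  · rintro h _ ⟨w, rfl⟩
    show ⟪x w, v⟫_ℂ = 0
    have h' : star x v = 0 := h
    rw [← inner_star', h', inner_zero_right]

lemma kp_star (x : H →L[ℂ] H) : kp (star x) = 1 - rp x := by
  rw [kp, ← range_orth, pr_orth, rp]

lemma kp_eq (x : H →L[ℂ] H) : kp x = 1 - rp (star x) := by
  rw [← kp_star, star_star]

lemma pinf_apply_eq_self {p q : H →L[ℂ] H} (hp : IsStarProjection p) (hq : IsStarProjection q)
    {v : H} : pinf p q v = v ↔ p v = v ∧ q v = v := by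
  rw [pinf, pr_eq_self, closure_eq ((isClosed_range_proj hp).inter (isClosed_range_proj hq)),
    Submodule.mem_inf, mem_range_proj hp, mem_range_proj hq]

lemma mul_pinf_left {p : H →L[ℂ] H} (hp : IsStarProjection p) (q : H →L[ℂ] H) :
    p * pinf p q = pinf p q := mul_pr fun _ hv => (mem_range_proj hp).1 hv.1

lemma mul_pinf_right (p : H →L[ℂ] H) {q : H →L[ℂ] H} (hq : IsStarProjection q) :
    q * pinf p q = pinf p q := mul_pr fun _ hv => (mem_range_proj hq).1 hv.2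

/-- maximality of the infimum -/
lemma pinf_mul {p q y : H →L[ℂ] H} (h1 : p * y = y) (h2 : q * y = y) : pinf p q * y = y := by
  ext v
  exact pr_of_mem ⟨⟨y v, congrArg (fun z : H →L[ℂ] H => z v) h1⟩,
    ⟨y v, congrArg (fun z : H →L[ℂ] H => z v) h2⟩⟩

lemma proj_comm {p q : H →L[ℂ] H} (hp : IsStarProjection p) (hq : IsStarProjection q)
    (h : q * p = p) : p * q = p := by
  have := congrArg star h
  rwa [star_mul, hp.isSelfAdjoint.star_eq, hq.isSelfAdjoint.star_eq] at this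

lemma proj_sub {p q : H →L[ℂ] H} (hp : IsStarProjection p) (hq : IsStarProjection q)
    (h : q * p = p) : IsStarProjection (q - p) := by
  refine ⟨?_, hq.isSelfAdjoint.sub hp.isSelfAdjoint⟩
  show (q - p) * (q - p) = q - p
  rw [sub_mul, mul_sub, mul_sub, hq.isIdempotentElem.eq, hp.isIdempotentElem.eq, h,
    proj_comm hp hq h]
  abel

/-! ### resolvents -/

lemma res_lower (x : H →L[ℂ] H) (ε : ℝ) (z : H) :
    (⟪(x * star x + (ε : ℂ) • 1) z, z⟫_ℂ).re = ‖star x z‖ ^ 2 + ε * ‖z‖ ^ 2 := by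
  have e : (x * star x + (ε : ℂ) • 1) z = x (star x z) + (ε : ℂ) • z := rfl
  rw [e, inner_add_left, ← inner_star', inner_smul_left, inner_self_eq_norm_sq_to_K,
    inner_self_eq_norm_sq_to_K]
  simp [← Complex.ofReal_pow]

lemma res_unit (x : H →L[ℂ] H) {ε : ℝ} (hε : 0 < ε) : IsUnit (x * star x + (ε : ℂ) • 1) := by
  have h1 : IsUnit ((ε : ℂ) • (1 : H →L[ℂ] H)) :=
    isUnit_one.smul (Units.mk0 (ε : ℂ) (by exact_mod_cast hε.ne'))
  refine CStarAlgebra.isUnit_of_le _ (le_add_of_nonneg_left (mul_star_self_nonneg x)) ⟨?_, h1⟩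
  exact smul_nonneg (by exact_mod_cast hε.le) zero_le_one

/-- the resolvent `(x x* + ε)⁻¹` -/
def res (x : H →L[ℂ] H) (ε : ℝ) : H →L[ℂ] H := Ring.inverse (x * star x + (ε : ℂ) • 1)

lemma mul_res (x : H →L[ℂ] H) {ε : ℝ} (hε : 0 < ε) :
    (x * star x + (ε : ℂ) • 1) * res x ε = 1 := Ring.mul_inverse_cancel _ (res_unit x hε)

lemma res_mul (x : H →L[ℂ] H) {ε : ℝ} (hε : 0 < ε) :
    res x ε * (x * star x + (ε : ℂ) • 1) = 1 := Ring.inverse_mul_cancel _ (res_unit x hε)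

lemma res_norm (x : H →L[ℂ] H) {ε : ℝ} (hε : 0 < ε) (v : H) : ε * ‖res x ε v‖ ≤ ‖v‖ := by
  set z := res x ε v
  have h1 := res_lower x ε z
  have h2 : (x * star x + (ε : ℂ) • 1) z = v := congrArg (fun y : H →L[ℂ] H => y v) (mul_res x hε)
  rw [h2] at h1
  have h3 : (⟪v, z⟫_ℂ).re ≤ ‖v‖ * ‖z‖ := (Complex.re_le_norm _).trans (norm_inner_le_norm _ _)
  rcases (norm_nonneg z).eq_or_lt with h | h
  · rw [← h]; simp
  · have : ε * ‖z‖ * ‖z‖ ≤ ‖v‖ * ‖z‖ := by nlinarith [sq_nonneg ‖star x z‖]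
    exact le_of_mul_le_mul_right this h

lemma res_range (x : H →L[ℂ] H) {ε : ℝ} (hε : 0 < ε) (w : H) :
    (ε * ‖res x ε (x w)‖) ^ 2 ≤ ε * ‖w‖ ^ 2 := by
  set z := res x ε (x w)
  have h1 := res_lower x ε z
  have h2 : (x * star x + (ε : ℂ) • 1) z = x w :=
    congrArg (fun y : H →L[ℂ] H => y (x w)) (mul_res x hε)
  rw [h2, ← inner_star'] at h1
  have h3 : (⟪w, star x z⟫_ℂ).re ≤ ‖w‖ * ‖star x z‖ :=
    (Complex.re_le_norm _).trans (norm_inner_le_norm _ _)
  have h4 : ε * ‖z‖ ^ 2 ≤ ‖w‖ ^ 2 := by nlinarith [sq_nonneg (‖star x z‖ - ‖w‖), sq_nonneg ‖w‖, sq_nonneg ‖star x z‖]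
  calc (ε * ‖z‖) ^ 2 = ε * (ε * ‖z‖ ^ 2) := by ring
    _ ≤ _ := by gcongr

lemma res_ker (x : H →L[ℂ] H) {ε : ℝ} (hε : 0 < ε) {w : H} (hw : star x w = 0) :
    (ε : ℂ) • res x ε w = w := by
  have h2 : res x ε ((x * star x + (ε : ℂ) • 1) w) = w :=
    congrArg (fun y : H →L[ℂ] H => y w) (res_mul x hε)
  have e : (x * star x + (ε : ℂ) • 1) w = x (star x w) + (ε : ℂ) • w := rfl
  rwa [e, hw, map_zero, zero_add, map_smul] at h2

lemma res_tendsto (x : H →L[ℂ] H) (v : H) :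
    Tendsto (fun n : ℕ => ((((1 / ((n : ℝ) + 1) : ℝ)) : ℂ) • res x (1 / ((n : ℝ) + 1))) v) atTop
      (𝓝 ((1 - rp x) v)) := by
  have hpos : ∀ n : ℕ, (0 : ℝ) < 1 / ((n : ℝ) + 1) := fun n => by positivity
  have hn : ∀ (n : ℕ) (u : H), ‖((((1 / ((n : ℝ) + 1) : ℝ)) : ℂ) • res x (1 / ((n : ℝ) + 1))) u‖
      = (1 / ((n : ℝ) + 1)) * ‖res x (1 / ((n : ℝ) + 1)) u‖ := fun n u => by
    rw [ContinuousLinearMap.smul_apply, norm_smul, Complex.norm_real, Real.norm_eq_abs,
      abs_of_pos (hpos n)]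
  have key : ∀ u ∈ (LinearMap.range (x : H →ₗ[ℂ] H)).topologicalClosure,
      Tendsto (fun n : ℕ => ((((1 / ((n : ℝ) + 1) : ℝ)) : ℂ) • res x (1 / ((n : ℝ) + 1))) u) atTop
      (𝓝 0) := by
    intro u hu
    rw [Metric.tendsto_atTop]
    intro δ hδ
    obtain ⟨_, ⟨w, rfl⟩, hw⟩ := Metric.mem_closure_iff.1 hu (δ / 2) (by positivity)
    have t0 : Tendsto (fun n : ℕ => (1 / ((n : ℝ) + 1)) * ‖w‖ ^ 2) atTop (𝓝 0) := by
      simpa using tendsto_one_div_add_atTop_nhds_zero_nat.mul_const (‖w‖ ^ 2)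
    obtain ⟨N, hN⟩ := eventually_atTop.1 (t0.eventually (gt_mem_nhds (show 0 < (δ / 2) ^ 2 by positivity)))
    refine ⟨N, fun n hn' => ?_⟩
    rw [dist_zero_right]
    have e : u = x w + (u - x w) := by abel
    rw [e, map_add]
    refine (norm_add_le _ _).trans_lt ?_
    rw [hn, hn]
    have a1 := res_range x (hpos n) w
    have a2 := res_norm x (hpos n) (u - x w)
    have a3 : ‖u - x w‖ < δ / 2 := by rw [← dist_eq_norm]; exact hw
    have a4 : 1 / ((n : ℝ) + 1) * ‖res x (1 / ((n : ℝ) + 1)) (x w)‖ < δ / 2 :=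
      lt_of_pow_lt_pow_left₀ 2 (by positivity) (a1.trans_lt (hN n hn'))
    linarith
  have h1 : star x (v - rp x v) = 0 := by
    have := sub_pr_mem (LinearMap.range (x : H →ₗ[ℂ] H)) v
    rw [range_orth] at this
    exact this
  have h2 := (key _ (pr_mem _ v)).add_const (v - rp x v)
  rw [zero_add] at h2
  refine h2.congr fun n => ?_
  conv_rhs => rw [show v = rp x v + (v - rp x v) by abel, map_add]
  congr 1
  exact (res_ker x (hpos n) h1).symm

/-! ### spectral projections -/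

/-- spectral projection `1_{[c,∞)}(a)` of a self-adjoint `a` -/
def sp (a : H →L[ℂ] H) (c : ℝ) : H →L[ℂ] H := kp ((a - (c : ℂ) • 1)⁻)

lemma sp_proj (a : H →L[ℂ] H) (c : ℝ) : IsStarProjection (sp a c) := kp_proj _

lemma sa_sub {a : H →L[ℂ] H} (ha : IsSelfAdjoint a) (c : ℝ) :
    IsSelfAdjoint (a - (c : ℂ) • (1 : H →L[ℂ] H)) := by
  refine ha.sub ?_
  show star _ = _
  simp

lemma comm_negPart {b y : H →L[ℂ] H} (hb : IsSelfAdjoint b) (h : y * b = b * y) :
    y * b⁻ = b⁻ * y := by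
  have hc : Commute b y := h.symm
  rw [CFC.negPart_def, cfcₙ_eq_cfc]
  exact (hb.commute_cfc hc _).symm.eq

/-- anything commuting (with its adjoint) with `a` commutes with `sp a c` -/
lemma comm_sp {a y : H →L[ℂ] H} (ha : IsSelfAdjoint a) (c : ℝ) (h : y * a = a * y) :
    y * sp a c = sp a c * y := by
  have h' : star y * a = a * star y := by
    have := congrArg star h
    rw [star_mul, star_mul, ha.star_eq] at this
    exact this.symm
  have k : ∀ z : H →L[ℂ] H, z * a = a * z →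
      ∀ v ∈ LinearMap.ker (((a - (c : ℂ) • 1)⁻ : H →L[ℂ] H) : H →ₗ[ℂ] H),
      z v ∈ (LinearMap.ker (((a - (c : ℂ) • 1)⁻ : H →L[ℂ] H) : H →ₗ[ℂ] H)).topologicalClosure := by
    intro z hz v hv
    refine Submodule.le_topologicalClosure _ ?_
    have e := comm_negPart (sa_sub ha c) (y := z) (by simp [mul_sub, sub_mul, hz])
    have e2 : ((a - (c : ℂ) • 1)⁻ : H →L[ℂ] H) (z v) = z (((a - (c : ℂ) • 1)⁻ : H →L[ℂ] H) v) :=
      (congrArg (fun y : H →L[ℂ] H => y v) e).symm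
    have hv' : ((a - (c : ℂ) • 1)⁻ : H →L[ℂ] H) v = 0 := hv
    show ((a - (c : ℂ) • 1)⁻ : H →L[ℂ] H) (z v) = 0
    rw [e2, hv', map_zero]
  exact comm_pr (k y h) (k _ h')

lemma re_inner_nonneg {b : H →L[ℂ] H} (hb : 0 ≤ b) (v : H) : 0 ≤ (⟪b v, v⟫_ℂ).re :=
  ((ContinuousLinearMap.nonneg_iff_isPositive b).1 hb).re_inner_nonneg_left v

lemma re_inner_sub (a : H →L[ℂ] H) (c : ℝ) (v : H) :
    (⟪(a - (c : ℂ) • 1) v, v⟫_ℂ).re = (⟪a v, v⟫_ℂ).re - c * ‖v‖ ^ 2 := by
  have e : (a - (c : ℂ) • 1) v = a v - (c : ℂ) • v := rfl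
  rw [e, inner_sub_left, inner_smul_left, inner_self_eq_norm_sq_to_K]
  simp [← Complex.ofReal_pow]

/-- `a ≥ c` on the range of `sp a c` -/
lemma sp_ge {a : H →L[ℂ] H} (ha : IsSelfAdjoint a) (c : ℝ) {v : H} (hv : sp a c v = v) :
    c * ‖v‖ ^ 2 ≤ (⟪a v, v⟫_ℂ).re := by
  have h1 : ((a - (c : ℂ) • 1)⁻ : H →L[ℂ] H) v = 0 := kp_apply_eq_self.1 hv
  have h2 := CFC.posPart_sub_negPart (a - (c : ℂ) • (1 : H →L[ℂ] H)) (sa_sub ha c)
  have h3 := re_inner_sub a c v
  have h4 := re_inner_nonneg (CFC.posPart_nonneg (a - (c : ℂ) • (1 : H →L[ℂ] H))) v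
  rw [← h2, ContinuousLinearMap.sub_apply, h1, sub_zero] at h3
  linarith

/-- `a ≤ c` on the complement of the range of `sp a c` -/
lemma sp_le {a : H →L[ℂ] H} (ha : IsSelfAdjoint a) (c : ℝ) {v : H} (hv : sp a c v = 0) :
    (⟪a v, v⟫_ℂ).re ≤ c * ‖v‖ ^ 2 := by
  set b := a - (c : ℂ) • (1 : H →L[ℂ] H)
  have h0 : b⁺ * (1 - sp a c) = 0 := by
    have : (1 : H →L[ℂ] H) - sp a c = rp b⁻ := by
      rw [sp, kp_eq, sub_sub_cancel, (CFC.negPart_nonneg b).isSelfAdjoint.star_eq]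
    rw [this]
    exact mul_rp_zero (CFC.posPart_mul_negPart b)
  have h1 : (b⁺ : H →L[ℂ] H) v = 0 := by
    have := congrArg (fun y : H →L[ℂ] H => y v) h0
    simpa [hv] using this
  have h2 := CFC.posPart_sub_negPart b (sa_sub ha c)
  have h3 := re_inner_sub a c v
  have h4 := re_inner_nonneg (CFC.negPart_nonneg b) v
  change (⟪b v, v⟫_ℂ).re = _ at h3
  rw [← h2, ContinuousLinearMap.sub_apply, h1, zero_sub, inner_neg_left, Complex.neg_re] at h3
  linarith

/-! ### traces -/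

/-- `M = C'` (with `C` closed under adjoints) with a normal faithful tracial state `τ` -/
structure VT (H : Type*) [NormedAddCommGroup H] [InnerProductSpace ℂ H] [CompleteSpace H] where
  C : Set (H →L[ℂ] H)
  star_mem : ∀ c ∈ C, star c ∈ C
  τ : (H →L[ℂ] H) →ₗ[ℂ] ℂ
  τ_one : τ 1 = 1
  pos : ∀ x, 0 ≤ τ (star x * x)
  tr : ∀ x ∈ centralizer C, ∀ y ∈ centralizer C, τ (x * y) = τ (y * x)
  faithful : ∀ x ∈ centralizer C, τ (star x * x) = 0 → x = 0
  normal : ∀ (x : ℕ → H →L[ℂ] H) (y : H →L[ℂ] H), (∀ v, Tendsto (fun n => x n v) atTop (𝓝 (y v))) →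
    Tendsto (fun n => τ (x n)) atTop (𝓝 (τ y))

lemma sq_nonneg_of_real (r : ℝ) : (0 : ℂ) ≤ (r : ℂ) ^ 2 := by
  rw [← Complex.ofReal_pow]; exact Complex.zero_le_real.2 (sq_nonneg r)

/-- the vector-trace instance -/
def VT.ofVec (C : Set (H →L[ℂ] H)) (hC : ∀ c ∈ C, star c ∈ C) (ξ : H) (h1 : ‖ξ‖ = 1)
    (htr : ∀ x ∈ centralizer C, ∀ y ∈ centralizer C, ⟪ξ, (x * y) ξ⟫_ℂ = ⟪ξ, (y * x) ξ⟫_ℂ)
    (hsep : ∀ x ∈ centralizer C, x ξ = 0 → x = 0) : VT H where
  C := C
  star_mem := hC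
  τ := { toFun := fun x => ⟪ξ, x ξ⟫_ℂ
         map_add' := fun x y => by simp [inner_add_right]
         map_smul' := fun c x => by simp [inner_smul_right] }
  τ_one := by simp [h1]
  pos := fun x => by
    show 0 ≤ ⟪ξ, star x (x ξ)⟫_ℂ
    rw [inner_star', inner_self_eq_norm_sq_to_K]
    exact sq_nonneg_of_real ‖x ξ‖
  tr := htr
  faithful := fun x hx h => hsep x hx (by
    have h' : ⟪ξ, star x (x ξ)⟫_ℂ = 0 := h
    rw [inner_star'] at h'
    exact inner_self_eq_zero.1 h')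
  normal := fun x y h => tendsto_const_nhds.inner (h ξ)

namespace VT
variable (T : VT H)

/-- the von Neumann algebra -/
def M : Set (H →L[ℂ] H) := centralizer T.C

/-- the real part of the trace -/
def t (x : H →L[ℂ] H) : ℝ := (T.τ x).re

variable {T}

lemma one_mem : 1 ∈ T.M := one_mem_centralizer
lemma zero_mem : 0 ∈ T.M := zero_mem_centralizer
lemma mul_mem {x y : H →L[ℂ] H} (hx : x ∈ T.M) (hy : y ∈ T.M) : x * y ∈ T.M :=
  mul_mem_centralizer hx hy
lemma add_mem {x y : H →L[ℂ] H} (hx : x ∈ T.M) (hy : y ∈ T.M) : x + y ∈ T.M :=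
  add_mem_centralizer hx hy
lemma sub_mem {x y : H →L[ℂ] H} (hx : x ∈ T.M) (hy : y ∈ T.M) : x - y ∈ T.M := fun c hc => by
  rw [mul_sub, sub_mul, hx c hc, hy c hc]
lemma smul_mem (a : ℂ) {x : H →L[ℂ] H} (hx : x ∈ T.M) : a • x ∈ T.M := fun c hc => by
  rw [mul_smul_comm, smul_mul_assoc, hx c hc]
lemma star_mem' {x : H →L[ℂ] H} (hx : x ∈ T.M) : star x ∈ T.M := fun c hc => by
  have := congrArg star (hx _ (T.star_mem c hc))
  rw [star_mul, star_mul, star_star] at this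
  exact this.symm
lemma pow_mem {x : H →L[ℂ] H} (hx : x ∈ T.M) (n : ℕ) : x ^ n ∈ T.M := by
  induction n with
  | zero => simpa using one_mem
  | succ n ih => rw [pow_succ]; exact mul_mem ih hx
lemma sum_mem {ι : Type*} (s : Finset ι) {x : ι → H →L[ℂ] H} (hx : ∀ i ∈ s, x i ∈ T.M) :
    ∑ i ∈ s, x i ∈ T.M :=
  Finset.sum_induction _ (· ∈ T.M) (fun _ _ => add_mem) zero_mem hx
lemma inverse_mem {x : H →L[ℂ] H} (hx : x ∈ T.M) : Ring.inverse x ∈ T.M := fun c hc => by
  by_cases h : IsUnit x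
  · obtain ⟨u, rfl⟩ := h
    rw [Ring.inverse_unit]
    exact (Commute.units_inv_right (hx c hc)).eq
  · rw [Ring.inverse_non_unit _ h]; simp

lemma pr_mem_M {W : Submodule ℂ H} (h : ∀ c ∈ T.C, ∀ v ∈ W, c v ∈ W.topologicalClosure) :
    pr W ∈ T.M := fun c hc => comm_pr (h c hc) (h _ (T.star_mem c hc))

lemma comm_apply {x c : H →L[ℂ] H} (hx : x ∈ T.M) (hc : c ∈ T.C) (v : H) : c (x v) = x (c v) :=
  congrArg (fun y : H →L[ℂ] H => y v) (hx c hc)

lemma rp_mem {x : H →L[ℂ] H} (hx : x ∈ T.M) : rp x ∈ T.M :=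
  pr_mem_M fun c hc => by
    rintro _ ⟨w, rfl⟩
    exact Submodule.le_topologicalClosure _ ⟨c w, (comm_apply hx hc w).symm⟩

lemma kp_mem {x : H →L[ℂ] H} (hx : x ∈ T.M) : kp x ∈ T.M := by
  rw [kp_eq]; exact sub_mem one_mem (rp_mem (star_mem' hx))

lemma pinf_mem {p q : H →L[ℂ] H} (hp : p ∈ T.M) (hq : q ∈ T.M) : pinf p q ∈ T.M :=
  pr_mem_M fun c hc => by
    rintro v ⟨⟨w, h1⟩, ⟨w', h2⟩⟩
    refine Submodule.le_topologicalClosure _ ⟨⟨c w, ?_⟩, ⟨c w', ?_⟩⟩
    · rw [← h1]; exact (comm_apply hp hc w).symm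
    · rw [← h2]; exact (comm_apply hq hc w').symm

lemma sp_mem {a : H →L[ℂ] H} (ha : IsSelfAdjoint a) (hM : a ∈ T.M) (c : ℝ) : sp a c ∈ T.M :=
  fun y hy => comm_sp ha c (hM y hy)

lemma cfc_mem {a : H →L[ℂ] H} (hM : a ∈ T.M) (f : ℂ → ℂ) : cfc f a ∈ T.M := fun y hy =>
  (Commute.cfc (hM y hy).symm (star_mem' hM y hy).symm f).symm.eq

lemma cfc_real_mem {a : H →L[ℂ] H} (ha : IsSelfAdjoint a) (hM : a ∈ T.M) (f : ℝ → ℝ) :
    cfc f a ∈ T.M := fun y hy => (ha.commute_cfc (hM y hy).symm f).symm.eq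

lemma t_add (x y : H →L[ℂ] H) : T.t (x + y) = T.t x + T.t y := by simp [t]
lemma t_sub (x y : H →L[ℂ] H) : T.t (x - y) = T.t x - T.t y := by simp [t]
lemma t_smul (c : ℝ) (x : H →L[ℂ] H) : T.t ((c : ℂ) • x) = c * T.t x := by simp [t]
lemma t_one : T.t 1 = 1 := by simp [t, T.τ_one]
lemma t_zero : T.t 0 = 0 := by simp [t]
lemma t_sum {ι : Type*} (s : Finset ι) (x : ι → H →L[ℂ] H) :
    T.t (∑ i ∈ s, x i) = ∑ i ∈ s, T.t (x i) := by simp [t]
lemma t_comm {x y : H →L[ℂ] H} (hx : x ∈ T.M) (hy : y ∈ T.M) : T.t (x * y) = T.t (y * x) := by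
  rw [t, t, T.tr x hx y hy]
lemma t_star_mul_nonneg (x : H →L[ℂ] H) : 0 ≤ T.t (star x * x) :=
  (Complex.le_def.1 (T.pos x)).1
lemma τ_star_mul (x : H →L[ℂ] H) : T.τ (star x * x) = T.t (star x * x) :=
  Complex.ext rfl (Complex.le_def.1 (T.pos x)).2.symm
lemma eq_zero_of_t {x : H →L[ℂ] H} (hx : x ∈ T.M) (h : T.t (star x * x) = 0) : x = 0 :=
  T.faithful x hx (by rw [τ_star_mul, h]; simp)

lemma t_nonneg {a : H →L[ℂ] H} (ha : 0 ≤ a) : 0 ≤ T.t a := by
  obtain ⟨b, rfl⟩ := CStarAlgebra.nonneg_iff_eq_star_mul_self.1 ha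
  exact t_star_mul_nonneg b
lemma t_mono {a b : H →L[ℂ] H} (h : a ≤ b) : T.t a ≤ T.t b := by
  have := T.t_nonneg (sub_nonneg.2 h)
  rw [t_sub] at this; linarith

lemma proj_eq {p : H →L[ℂ] H} (hp : IsStarProjection p) : star p * p = p := by
  rw [hp.isSelfAdjoint.star_eq, hp.isIdempotentElem.eq]
lemma t_proj_nonneg {p : H →L[ℂ] H} (hp : IsStarProjection p) : 0 ≤ T.t p := by
  rw [← proj_eq hp]; exact t_star_mul_nonneg p
lemma τ_proj {p : H →L[ℂ] H} (hp : IsStarProjection p) : T.τ p = T.t p := by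
  rw [← proj_eq hp]; exact τ_star_mul p
lemma t_proj_le_one {p : H →L[ℂ] H} (hp : IsStarProjection p) : T.t p ≤ 1 := by
  have := T.t_proj_nonneg hp.one_sub
  rw [t_sub, t_one] at this; linarith
/-- monotonicity, `p ≤ q` written `q * p = p` -/
lemma t_proj_mono {p q : H →L[ℂ] H} (hp : IsStarProjection p) (hq : IsStarProjection q)
    (h : q * p = p) : T.t p ≤ T.t q := by
  have := T.t_proj_nonneg (proj_sub hp hq h)
  rw [t_sub] at this; linarith
lemma proj_eq_zero {p : H →L[ℂ] H} (hp : IsStarProjection p) (hM : p ∈ T.M) (h : T.t p ≤ 0) :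
    p = 0 := eq_zero_of_t hM (by rw [proj_eq hp]; exact le_antisymm h (t_proj_nonneg hp))
/-- `p ≤ q` and `τ q ≤ τ p` give `p = q` -/
lemma proj_eq_of_le {p q : H →L[ℂ] H} (hp : IsStarProjection p) (hq : IsStarProjection q)
    (hpM : p ∈ T.M) (hqM : q ∈ T.M) (h : q * p = p) (ht : T.t q ≤ T.t p) : p = q := by
  have := proj_eq_zero (proj_sub hp hq h) (sub_mem hqM hpM) (by rw [t_sub]; linarith)
  exact (sub_eq_zero.1 this).symm

lemma τ_res {x : H →L[ℂ] H} (hx : x ∈ T.M) {ε : ℝ} (hε : 0 < ε) :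
    T.τ ((ε : ℂ) • res x ε) = T.τ ((ε : ℂ) • res (star x) ε) := by
  have h1 := mul_res x hε
  have h2 := res_mul (star x) hε
  rw [star_star] at h2
  have hR : res (star x) ε ∈ T.M :=
    inverse_mem (add_mem (mul_mem (star_mem' hx) (star_mem' (star_mem' hx))) (smul_mem _ one_mem))
  have h3 : star x * res x ε = res (star x) ε * star x := by
    calc star x * res x ε = (res (star x) ε * (star x * x + (ε : ℂ) • 1)) * star x * res x ε := by
          rw [h2, one_mul]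
      _ = res (star x) ε * star x * ((x * star x + (ε : ℂ) • 1) * res x ε) := by
          simp only [mul_add, add_mul, mul_assoc, smul_mul_assoc, mul_smul_comm, one_mul, mul_one]
      _ = _ := by rw [h1, mul_one]
  have e1 : (ε : ℂ) • res x ε = 1 - x * (res (star x) ε * star x) := by
    rw [← h3, ← h1]; simp [add_mul, mul_assoc]
  have e2 : (ε : ℂ) • res (star x) ε = 1 - (res (star x) ε * star x) * x := by
    rw [← h2]; simp [mul_add, mul_assoc]
  rw [e1, e2, map_sub, map_sub, T.tr x hx _ (mul_mem hR (star_mem' hx))]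

/-- left and right supports have the same trace -/
theorem t_rp_star {x : H →L[ℂ] H} (hx : x ∈ T.M) : T.t (rp (star x)) = T.t (rp x) := by
  have h1 := T.normal _ _ (res_tendsto x)
  have h2 := T.normal _ _ (res_tendsto (star x))
  have h3 : T.τ (1 - rp x) = T.τ (1 - rp (star x)) :=
    tendsto_nhds_unique h1 (h2.congr fun n => (τ_res hx (by positivity)).symm)
  have := congrArg Complex.re h3
  change T.t _ = T.t _ at this
  rw [t_sub, t_sub] at this
  linarith

/-- rank-nullity -/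
theorem t_rp_add_kp {x : H →L[ℂ] H} (hx : x ∈ T.M) : T.t (rp x) + T.t (kp x) = 1 := by
  rw [kp_eq, t_sub, t_one, t_rp_star hx]; ring

theorem t_rp_mul_le {x p : H →L[ℂ] H} (hx : x ∈ T.M) (hp : IsStarProjection p) (hpM : p ∈ T.M) :
    T.t (rp (x * p)) ≤ T.t p := by
  rw [← t_rp_star (mul_mem hx hpM)]
  refine t_proj_mono (rp_proj _) hp (mul_rp ?_)
  rw [star_mul, hp.isSelfAdjoint.star_eq, ← mul_assoc, hp.isIdempotentElem.eq]

/-- `τ [x p] = τ p` when `x` is injective on the range of `p` -/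
theorem t_rp_mul {x p : H →L[ℂ] H} (hx : x ∈ T.M) (hp : IsStarProjection p) (hpM : p ∈ T.M)
    (hinj : ∀ v, p v = v → x v = 0 → v = 0) : T.t (rp (x * p)) = T.t p := by
  have h1 := t_rp_add_kp (mul_mem hx hpM)
  have h2 : kp (x * p) = 1 - p := by
    ext v
    refine pr_apply_eq (Submodule.le_topologicalClosure _ ?_) ?_
    · show x (p (v - p v)) = 0
      rw [map_sub, proj_apply hp, sub_self, map_zero]
    · rw [Submodule.mem_orthogonal]
      intro u hu
      have h3 : p u = 0 := hinj _ (proj_apply hp u) hu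
      have : v - (1 - p) v = p v := by simp
      show ⟪u, v - (1 - p) v⟫_ℂ = 0
      rw [this, ← inner_star, hp.isSelfAdjoint.star_eq, h3, inner_zero_left]
  rw [h2, t_sub, t_one] at h1
  linarith

/-- `τ (p ∧ ker x) ≥ τ p − τ [x p]`, in fact equality -/
theorem t_pinf_kp {x p : H →L[ℂ] H} (hx : x ∈ T.M) (hp : IsStarProjection p) (hpM : p ∈ T.M) :
    T.t (pinf p (kp x)) + T.t (rp (x * p)) = T.t p := by
  have h1 := t_rp_add_kp (mul_mem hx hpM)
  have hi := mul_pinf_left hp (kp x)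
  have hi' := proj_comm (pinf_proj p (kp x)) hp hi
  have h2 : kp (x * p) = 1 - p + pinf p (kp x) := by
    ext v
    have a0 : x (pinf p (kp x) v) = 0 := kp_apply_eq_self.1
      (congrArg (fun y : H →L[ℂ] H => y v) (mul_pinf_right p (kp_proj x)))
    have a1 : p (pinf p (kp x) v) = pinf p (kp x) v := congrArg (fun y : H →L[ℂ] H => y v) hi
    refine pr_apply_eq (Submodule.le_topologicalClosure _ ?_) ?_
    · show x (p (v - p v + pinf p (kp x) v)) = 0
      rw [map_add, map_sub, proj_apply hp, sub_self, zero_add, a1, a0]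
    · rw [Submodule.mem_orthogonal]
      intro u hu
      have h3 : pinf p (kp x) (p u) = p u :=
        (pinf_apply_eq_self hp (kp_proj x)).2 ⟨proj_apply hp u, kp_apply_eq_self.2 hu⟩
      have h4 : pinf p (kp x) (p u) = pinf p (kp x) u := congrArg (fun y : H →L[ℂ] H => y u) hi'
      have : v - (1 - p + pinf p (kp x)) v = p v - pinf p (kp x) v := by simp; abel
      show ⟪u, v - (1 - p + pinf p (kp x)) v⟫_ℂ = 0
      rw [this, inner_sub_right, ← inner_star, ← inner_star, hp.isSelfAdjoint.star_eq,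
        (pinf_proj p (kp x)).isSelfAdjoint.star_eq, ← h4, h3, sub_self]
  rw [h2, t_add, t_sub, t_one] at h1
  linarith

/-- `τ (p ∧ q) ≥ τ p + τ q − 1` -/
theorem t_pinf_ge {p q : H →L[ℂ] H} (hp : IsStarProjection p) (hq : IsStarProjection q)
    (hpM : p ∈ T.M) (hqM : q ∈ T.M) : T.t p + T.t q - 1 ≤ T.t (pinf p q) := by
  have h1 := t_pinf_kp (sub_mem one_mem hqM) hp hpM
  have h2 : kp (1 - q) = q := by
    rw [kp_eq, hq.one_sub.isSelfAdjoint.star_eq, rp_of_proj hq.one_sub, sub_sub_cancel]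
  have h3 : T.t (rp ((1 - q) * p)) ≤ T.t (1 - q) :=
    t_proj_mono (rp_proj _) hq.one_sub
      (mul_rp (by rw [← mul_assoc, hq.one_sub.isIdempotentElem.eq]))
  rw [h2] at h1
  rw [t_sub, t_one] at h3
  linarith

/-- two projections with `τ p + τ q > 1` have a common nonzero vector -/
theorem pinf_ne_zero {p q : H →L[ℂ] H} (hp : IsStarProjection p) (hq : IsStarProjection q)
    (hpM : p ∈ T.M) (hqM : q ∈ T.M) (h : 1 < T.t p + T.t q) : pinf p q ≠ 0 := fun h0 => by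
  have := t_pinf_ge hp hq hpM hqM
  rw [h0, t_zero] at this; linarith

/-- if `x ∈ M` is injective and `x` leaves `p` invariant then `[x p] = p` -/
theorem rp_mul_eq_of_inv {x p : H →L[ℂ] H} (hx : x ∈ T.M) (hp : IsStarProjection p)
    (hpM : p ∈ T.M) (hinj : ∀ v, x v = 0 → v = 0) (hinv : (1 - p) * x * p = 0) :
    rp (x * p) = p := by
  refine proj_eq_of_le (rp_proj _) hp (rp_mem (mul_mem hx hpM)) hpM (mul_rp ?_)
    (t_rp_mul hx hp hpM fun v _ => hinj v).ge
  rw [sub_mul, sub_mul, one_mul, sub_eq_zero] at hinv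
  rw [← mul_assoc, ← hinv]

lemma t_conj_le {a p : H →L[ℂ] H} (hp : IsStarProjection p) {c : ℝ} (ha : IsSelfAdjoint a)
    (h : ∀ v, p v = v → c * ‖v‖ ^ 2 ≤ (⟪a v, v⟫_ℂ).re) : c * T.t p ≤ T.t (p * a * p) := by
  rw [← t_smul]
  refine t_mono ?_
  rw [← sub_nonneg, ContinuousLinearMap.nonneg_iff_isPositive,
    ContinuousLinearMap.isPositive_def']
  refine ⟨?_, fun v => ?_⟩
  · show star _ = _
    simp [ha.star_eq, hp.isSelfAdjoint.star_eq, mul_assoc]
  · have h1 := h (p v) (proj_apply hp v)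
    have e : (p * a * p - (c : ℂ) • p) v = star p (a (p v) - (c : ℂ) • p v) := by
      rw [hp.isSelfAdjoint.star_eq, map_sub, map_smul, proj_apply hp]; rfl
    have e2 := re_inner_sub a c (p v)
    show 0 ≤ (⟪(p * a * p - (c : ℂ) • p) v, v⟫_ℂ).re
    rw [e, inner_star]
    change (⟪a (p v) - (c : ℂ) • p v, p v⟫_ℂ).re = _ at e2
    linarith

lemma t_conj_proj_le {a p : H →L[ℂ] H} (ha : 0 ≤ a) (hM : a ∈ T.M) (hp : IsStarProjection p)
    (hpM : p ∈ T.M) : T.t (p * a * p) ≤ T.t a := by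
  have h1 : T.t (p * a * p) = T.t (a * p) := by
    rw [mul_assoc, t_comm hpM (mul_mem hM hpM), mul_assoc, hp.isIdempotentElem.eq]
  have hq := sub_mem one_mem hpM
  have h2 : T.t ((1 - p) * a * (1 - p)) = T.t (a * (1 - p)) := by
    rw [mul_assoc, t_comm hq (mul_mem hM hq), mul_assoc, hp.one_sub.isIdempotentElem.eq]
  have h3 : 0 ≤ T.t ((1 - p) * a * (1 - p)) := by
    refine t_nonneg ?_
    simpa [hp.one_sub.isSelfAdjoint.star_eq] using star_left_conjugate_nonneg ha (1 - p)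
  rw [h2, mul_sub, mul_one, t_sub] at h3
  linarith

/-- Markov inequality -/
theorem markov {a : H →L[ℂ] H} (ha : 0 ≤ a) (hM : a ∈ T.M) (c : ℝ) :
    c * T.t (sp a c) ≤ T.t a :=
  (t_conj_le (sp_proj a c) ha.isSelfAdjoint fun _ hv => sp_ge ha.isSelfAdjoint c hv).trans
    (t_conj_proj_le ha hM (sp_proj a c) (sp_mem ha.isSelfAdjoint hM c))

end VT

end Crest.Agent.H4.VD
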