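import Crest.Agent.H4.VD.Dim

/-! The 2-norm, Lipschitz bound and threshold monotonicity for `[x p]`. -/

set_option autoImplicit false

open scoped InnerProductSpace ComplexOrder
open Filter Topology Set

noncomputable section

namespace Crest.Agent.H4.VD

variable {H : Type*} [NormedAddCommGroup H] [InnerProductSpace ℂ H] [CompleteSpace H]

namespace VT
variable {T : VT H}

theorem proj_trivial {p : H →L[ℂ] H} (hp : IsStarProjection p) (hM : p ∈ T.M)
    (h : T.t p * (1 - T.t p) ≤ 0) : p = 0 ∨ p = 1 := by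
  have h0 := T.t_proj_nonneg hp
  have h1 := T.t_proj_le_one hp
  rcases h0.eq_or_lt with h2 | h2
  · exact Or.inl (proj_eq_zero hp hM h2.ge)
  · right
    have : 1 - T.t p ≤ 0 := by
      by_contra hc
      nlinarith [mul_pos h2 (not_le.1 hc)]
    have := proj_eq_zero hp.one_sub (sub_mem one_mem hM) (by rw [t_sub, t_one]; exact this)
    exact (sub_eq_zero.1 this).symm

lemma t_star (x : H →L[ℂ] H) : T.t (star x) = T.t x := by
  have h1 := (Complex.le_def.1 (T.pos (1 + Complex.I • x))).2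
  have h2 := (Complex.le_def.1 (T.pos x)).2
  have e : star (1 + Complex.I • x) * (1 + Complex.I • x)
      = 1 + Complex.I • x - Complex.I • star x + star x * x := by
    have hI : star x * x = (Complex.I * -Complex.I) • (star x * x) := by simp
    simp only [star_add, star_one, star_smul, Complex.star_def, Complex.conj_I, add_mul, mul_add,
      one_mul, mul_one, smul_mul_assoc, mul_smul_comm]
    conv_rhs => rw [hI]
    module
  rw [e] at h1
  simp only [map_add, map_sub, map_smul, T.τ_one, smul_eq_mul, Complex.add_im, Complex.sub_im,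
    Complex.mul_im, Complex.I_re, Complex.I_im, Complex.one_im, Complex.zero_im] at h1 h2
  simp only [t]
  linarith

/-- the 2-norm -/
def n2 (T : VT H) (x : H →L[ℂ] H) : ℝ := √(T.t (star x * x))

lemma n2_nonneg (x : H →L[ℂ] H) : 0 ≤ T.n2 x := Real.sqrt_nonneg _
lemma n2_sq (x : H →L[ℂ] H) : T.n2 x ^ 2 = T.t (star x * x) := Real.sq_sqrt (t_star_mul_nonneg x)

/-- Cauchy–Schwarz -/
lemma abs_t_le (x y : H →L[ℂ] H) : |T.t (star x * y)| ≤ T.n2 x * T.n2 y := by
  have key : ∀ s : ℝ, 0 ≤ T.t (star x * x) * (s * s) + 2 * T.t (star x * y) * s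
      + T.t (star y * y) := fun s => by
    have h := T.t_star_mul_nonneg ((s : ℂ) • x + y)
    have e : star ((s : ℂ) • x + y) * ((s : ℂ) • x + y) = ((s * s : ℝ) : ℂ) • (star x * x)
        + (s : ℂ) • (star x * y) + (s : ℂ) • star (star x * y) + star y * y := by
      simp only [star_add, star_smul, Complex.star_def, Complex.conj_ofReal, add_mul, mul_add,
        smul_mul_assoc, mul_smul_comm, star_mul, star_star, Complex.ofReal_mul]
      module
    rw [e, t_add, t_add, t_add, t_smul, t_smul, t_smul, t_star] at h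
    linarith
  have h := discrim_le_zero key
  rw [discrim] at h
  refine abs_le_of_sq_le_sq' ?_ (mul_nonneg (n2_nonneg x) (n2_nonneg y)) |> abs_le.2
  rw [mul_pow, n2_sq, n2_sq]
  nlinarith

lemma n2_add_le (x y : H →L[ℂ] H) : T.n2 (x + y) ≤ T.n2 x + T.n2 y := by
  refine Real.sqrt_le_iff.2 ⟨add_nonneg (n2_nonneg x) (n2_nonneg y), ?_⟩
  have e : star (x + y) * (x + y) = star x * x + star x * y + star (star x * y) + star y * y := by
    simp only [star_add, add_mul, mul_add, star_mul, star_star]; abel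
  rw [e, t_add, t_add, t_add, t_star, ← n2_sq, ← n2_sq]
  have := (abs_le.1 (T.abs_t_le x y)).2
  nlinarith

lemma n2_zero : T.n2 0 = 0 := by simp [n2, t_zero]
lemma n2_neg (x : H →L[ℂ] H) : T.n2 (-x) = T.n2 x := by simp [n2]
lemma n2_sub_comm (x y : H →L[ℂ] H) : T.n2 (x - y) = T.n2 (y - x) := by
  rw [← n2_neg, neg_sub]
lemma n2_sub_le (x y z : H →L[ℂ] H) : T.n2 (x - z) ≤ T.n2 (x - y) + T.n2 (y - z) := by
  simpa using T.n2_add_le (x - y) (y - z)
lemma n2_sum_le {ι : Type*} (s : Finset ι) (x : ι → H →L[ℂ] H) :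
    T.n2 (∑ i ∈ s, x i) ≤ ∑ i ∈ s, T.n2 (x i) :=
  Finset.le_sum_of_subadditive T.n2 n2_zero.le n2_add_le s x
lemma n2_star {x : H →L[ℂ] H} (hx : x ∈ T.M) : T.n2 (star x) = T.n2 x := by
  rw [n2, n2, star_star, t_comm hx (star_mem' hx)]
lemma n2_one : T.n2 1 = 1 := by simp [n2, t_one]

lemma n2_mul_le (a x : H →L[ℂ] H) : T.n2 (a * x) ≤ ‖a‖ * T.n2 x := by
  refine Real.sqrt_le_iff.2 ⟨mul_nonneg (norm_nonneg _) (n2_nonneg _), ?_⟩
  rw [mul_pow, n2_sq, ← t_smul]
  refine t_mono ?_
  have h := CStarAlgebra.star_left_conjugate_le_norm_smul (a := x) (b := star a * a)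
    (IsSelfAdjoint.star_mul_self a)
  rw [CStarRing.norm_star_mul_self] at h
  rw [star_mul, mul_assoc, ← mul_assoc (star a), ← mul_assoc (star x), Complex.coe_smul, sq]
  exact h

lemma n2_mul_le' {x a : H →L[ℂ] H} (hx : x ∈ T.M) (ha : a ∈ T.M) :
    T.n2 (x * a) ≤ ‖a‖ * T.n2 x := by
  rw [← n2_star (mul_mem hx ha), star_mul, ← n2_star hx, ← norm_star a]
  exact n2_mul_le _ _

lemma n2_le_norm (x : H →L[ℂ] H) : T.n2 x ≤ ‖x‖ := by
  simpa [n2_one] using T.n2_mul_le x 1

lemma abs_t_le_n2 (x : H →L[ℂ] H) : |T.t x| ≤ T.n2 x := by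
  simpa [n2_one] using T.abs_t_le 1 x

lemma eq_zero_of_n2 {x : H →L[ℂ] H} (hx : x ∈ T.M) (h : T.n2 x = 0) : x = 0 :=
  eq_zero_of_t hx (by rw [← n2_sq, h]; simp)

lemma t_mul_nonneg {a y : H →L[ℂ] H} (ha : 0 ≤ a) (hM : a ∈ T.M) (hy : y ∈ T.M) :
    0 ≤ T.t (a * (star y * y)) := by
  rw [← mul_assoc, t_comm (mul_mem hM (star_mem' hy)) hy, ← mul_assoc]
  exact t_nonneg (star_right_conjugate_nonneg ha y)

lemma n2_proj_sub_sq {p q : H →L[ℂ] H} (hp : IsStarProjection p) (hq : IsStarProjection q)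
    (pM : p ∈ T.M) (qM : q ∈ T.M) (ht : T.t p = T.t q) :
    T.n2 (q - p) ^ 2 = 2 * T.n2 ((1 - q) * p) ^ 2 := by
  have e1 : star (q - p) * (q - p) = q + p - q * p - p * q := by
    rw [star_sub, hp.isSelfAdjoint.star_eq, hq.isSelfAdjoint.star_eq, sub_mul, mul_sub, mul_sub,
      hp.isIdempotentElem.eq, hq.isIdempotentElem.eq]; abel
  have e2 : star ((1 - q) * p) * ((1 - q) * p) = p - p * (q * p) := by
    rw [star_mul, hp.isSelfAdjoint.star_eq, hq.one_sub.isSelfAdjoint.star_eq, mul_assoc,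
      ← mul_assoc (1 - q), hq.one_sub.isIdempotentElem.eq, sub_mul, mul_sub, one_mul,
      hp.isIdempotentElem.eq]
  have e3 : T.t (p * (q * p)) = T.t (q * p) := by
    rw [t_comm pM (mul_mem qM pM), mul_assoc, hp.isIdempotentElem.eq]
  rw [n2_sq, n2_sq, e1, e2, t_sub, t_sub, t_sub, t_add, e3, t_comm pM qM, ht]
  ring

/-- one Lipschitz step -/
theorem step_lip {p q x : H →L[ℂ] H} (hp : IsStarProjection p) (hq : IsStarProjection q)
    (pM : p ∈ T.M) (qM : q ∈ T.M) (xM : x ∈ T.M) (ht : T.t p = T.t q) (h : q * (x * p) = x * p) :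
    T.n2 (q - p) ≤ √2 * T.n2 (1 - x) := by
  have e : (1 - q) * p = (1 - q) * ((1 - x) * p) := by
    rw [sub_mul 1 x, mul_sub, one_mul, sub_mul 1 q (x * p), one_mul, h, sub_self, sub_zero]
  have h1 : T.n2 ((1 - q) * p) ≤ T.n2 (1 - x) := by
    rw [e]
    calc _ ≤ ‖1 - q‖ * T.n2 ((1 - x) * p) := n2_mul_le _ _
      _ ≤ 1 * (‖p‖ * T.n2 (1 - x)) :=
        mul_le_mul (hq.one_sub.norm_le _) (n2_mul_le' (sub_mem one_mem xM) pM) (n2_nonneg _)
          zero_le_one
      _ ≤ 1 * (1 * T.n2 (1 - x)) := by gcongr; exacts [n2_nonneg _, hp.norm_le _]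
      _ = _ := by ring
  refine le_of_sq_le_sq ?_ (mul_nonneg (Real.sqrt_nonneg _) (n2_nonneg _)) |> fun h => h
  rw [n2_proj_sub_sq hp hq pM qM ht, mul_pow, Real.sq_sqrt zero_le_two]
  have := T.n2_nonneg ((1 - q) * p)
  gcongr

/-- explicit formula for `[x p]` -/
lemma rp_formula {p x R : H →L[ℂ] H} (hp : IsStarProjection p) (hR : star R = R)
    (h : R * (p * star x * x * p) = p) : rp (x * p) = x * p * R * p * star x := by
  set e := x * p * R * p * star x with he
  have h1 : e * (x * p) = x * p := by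
    calc e * (x * p) = x * p * (R * (p * star x * x * p)) := by simp only [he, mul_assoc]
      _ = x * p := by rw [h, mul_assoc, hp.isIdempotentElem.eq]
  have h2 : star e = e := by
    simp only [he, star_mul, star_star, hR, hp.isSelfAdjoint.star_eq, mul_assoc]
  have h3 : rp (x * p) * e = e := by
    rw [he, ← mul_assoc, ← mul_assoc, ← mul_assoc, rp_mul]
  have h4 := congrArg star (mul_rp h1)
  rw [star_mul, h2, (rp_proj _).isSelfAdjoint.star_eq, h3] at h4
  exact h4.symm

/-- threshold monotonicity: `x` expands on `S` and contracts off `S` -/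
theorem thresh {p S x : H →L[ℂ] H} (hp : IsStarProjection p) (hS : IsStarProjection S)
    (pM : p ∈ T.M) (SM : S ∈ T.M) (xM : x ∈ T.M) {c : ℝ} (c0 : 0 < c) (c1 : c ≤ 1)
    (h1 : S ≤ star x * S * x) (h2 : (c : ℂ) • (1 - S) ≤ star x * (1 - S) * x)
    (h3 : star x * (1 - S) * x ≤ 1 - S) : T.t (p * S) ≤ T.t (rp (x * p) * S) := by
  have sp' := hp.isSelfAdjoint.star_eq
  have ip := hp.isIdempotentElem.eq
  have conj : ∀ {a b : H →L[ℂ] H}, a ≤ b → p * a * p ≤ p * b * p := fun hab => by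
    simpa [sp'] using star_left_conjugate_le_conjugate hab p
  set A := p * (star x * S * x) * p with hA
  set B := p * (star x * (1 - S) * x) * p with hB
  set A₀ := p * S * p with hA₀
  have AM : A ∈ T.M := mul_mem (mul_mem pM (mul_mem (mul_mem (star_mem' xM) SM) xM)) pM
  have qM := sub_mem one_mem SM
  have BM : B ∈ T.M := mul_mem (mul_mem pM (mul_mem (mul_mem (star_mem' xM) qM) xM)) pM
  have A₀M : A₀ ∈ T.M := mul_mem (mul_mem pM SM) pM
  have hA0 : A₀ ≤ A := conj h1
  have hB0 : B ≤ p * (1 - S) * p := conj h3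
  have hsum : A₀ + p * (1 - S) * p + (1 - p) = 1 := by
    rw [hA₀, mul_sub, sub_mul, mul_one, ip]; abel
  have hG' : IsStrictlyPositive (A₀ + B + (1 - p)) := by
    have u : IsStrictlyPositive ((c : ℂ) • (1 : H →L[ℂ] H)) :=
      ⟨smul_nonneg (by exact_mod_cast c0.le) zero_le_one,
        isUnit_one.smul (Units.mk0 (c : ℂ) (by exact_mod_cast c0.ne'))⟩
    refine u.of_le ?_
    have hc : ∀ {a : H →L[ℂ] H}, 0 ≤ a → (c : ℂ) • a ≤ a := fun {a} ha => by
      rw [← sub_nonneg]
      have : a - (c : ℂ) • a = ((1 - c : ℝ) : ℂ) • a := by simp [sub_smul]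
      rw [this]
      exact smul_nonneg (by exact_mod_cast sub_nonneg.2 c1) ha
    have e0 : (c : ℂ) • (1 : H →L[ℂ] H)
        = (c : ℂ) • A₀ + (c : ℂ) • (p * (1 - S) * p) + (c : ℂ) • (1 - p) := by
      rw [← smul_add, ← smul_add, hsum]
    rw [e0]
    refine add_le_add (add_le_add (hc ?_) ?_) (hc hp.one_sub.nonneg)
    · simpa [sp'] using star_left_conjugate_nonneg hS.nonneg p
    · simpa only [mul_smul_comm, smul_mul_assoc] using conj h2
  have hle : A₀ + B + (1 - p) ≤ A + B + (1 - p) := by gcongr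
  have hG : IsStrictlyPositive (A + B + (1 - p)) := hG'.of_le hle
  set R := Ring.inverse (A + B + (1 - p)) with hR
  set R' := Ring.inverse (A₀ + B + (1 - p)) with hR'
  have pc := sub_mem (T := T) one_mem pM
  have RM : R ∈ T.M := inverse_mem (add_mem (add_mem AM BM) pc)
  have R'M : R' ∈ T.M := inverse_mem (add_mem (add_mem A₀M BM) pc)
  have Ap : A * p = A := by rw [hA, mul_assoc, ip]
  have Bp : B * p = B := by rw [hB, mul_assoc, ip]
  have A₀p : A₀ * p = A₀ := by rw [hA₀, mul_assoc, ip]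
  have e1 : R * (A + B) = p := by
    have := congrArg (· * p) (Ring.inverse_mul_cancel _ hG.isUnit)
    simpa only [mul_assoc, add_mul, Ap, Bp, hp.one_sub_mul_self, add_zero, one_mul] using this
  have e2 : R' * (A₀ + B) = p := by
    have := congrArg (· * p) (Ring.inverse_mul_cancel _ hG'.isUnit)
    simpa only [mul_assoc, add_mul, A₀p, Bp, hp.one_sub_mul_self, add_zero, one_mul] using this
  have eAB : A + B = p * star x * x * p := by
    simp only [hA, hB, mul_sub, sub_mul, mul_one, mul_assoc]; abel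
  have f1 : T.t (rp (x * p) * S) = T.t (R * A) := by
    rw [rp_formula (R := R) hp hG.ringInverse.nonneg.isSelfAdjoint.star_eq (by rw [← eAB]; exact e1)]
    have := t_comm (mul_mem xM pM) (mul_mem (mul_mem (mul_mem RM pM) (star_mem' xM)) SM)
    simpa only [hA, mul_assoc] using this
  have f2 : T.t (R * B) ≤ T.t (R' * B) := by
    have hRR : R ≤ R' := CStarAlgebra.ringInverse_le_ringInverse hle hG'
    have yM : (1 - S) * x * p ∈ T.M := mul_mem (mul_mem qM xM) pM
    have eB : B = star ((1 - S) * x * p) * ((1 - S) * x * p) := by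
      rw [star_mul, star_mul, sp', hS.one_sub.isSelfAdjoint.star_eq, hB]
      simp only [mul_assoc]
      rw [← mul_assoc (1 - S) (1 - S), hS.one_sub.isIdempotentElem.eq]
    have := t_mul_nonneg (sub_nonneg.2 hRR) (sub_mem R'M RM) yM
    rw [← eB, sub_mul, t_sub] at this
    linarith
  have f3 : T.t A₀ ≤ T.t (R' * A₀) := by
    have hRR : 1 ≤ R' := by
      have h := CStarAlgebra.ringInverse_le_ringInverse
        (show A₀ + B + (1 - p) ≤ 1 from le_of_le_of_eq (by gcongr) hsum) hG'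
      rwa [Ring.inverse_one] at h
    have eA : A₀ = star (S * p) * (S * p) := by
      rw [star_mul, sp', hS.isSelfAdjoint.star_eq, hA₀]
      simp only [mul_assoc]
      rw [← mul_assoc S S, hS.isIdempotentElem.eq]
    have := t_mul_nonneg (sub_nonneg.2 hRR) (sub_mem R'M one_mem) (mul_mem SM pM)
    rw [← eA, sub_mul, t_sub, one_mul] at this
    linarith
  have f4 : T.t A₀ = T.t (p * S) := by
    rw [hA₀, t_comm (mul_mem pM SM) pM, ← mul_assoc, ip]
  have g1 := congrArg T.t e1
  have g2 := congrArg T.t e2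
  rw [mul_add, t_add] at g1 g2
  linarith

end VT

end Crest.Agent.H4.VD
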